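import Vale.Agent.P331.Sec

open MeasureTheory
open scoped NNReal ENNReal

namespace Vale.Agent.Results.P331.WithSecretary

open Vale.Agent.P331

theorem result (n : ℕ) (M : Matroid (Fin n)) (hE : M.E = Set.univ) :
    (∃ ρ : Rule n,
      (∀ S V R π, M.Indep (accepted ρ S V R π : Set (Fin n))) ∧
      (∀ R π g, MeasurableSet {ω : Fin n → ℝ≥0 × ℝ≥0 |
        g ∈ accepted ρ (fun e => (ω e).1) (fun e => (ω e).2) R π}) ∧
      ∀ (D : Fin n → Measure ℝ≥0) [∀ e, IsProbabilityMeasure (D e)]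
        (π : (Fin n → ℝ≥0 × ℝ≥0) → Equiv.Perm (Fin n)),
        (∀ σ, MeasurableSet {ω | π ω = σ}) →
        (∀ ω ω', (∀ e, ω' e = ω e ∨ ω' e = (ω e).swap) → π ω' = π ω) →
        ∫⁻ ω, (∑ R : Fin n → Bool,
            ∑ g ∈ accepted ρ (fun e => (ω e).1) (fun e => (ω e).2) R (π ω), ((ω g).2 : ℝ≥0∞)) / 2 ^ n
          ∂(Measure.pi fun e => (D e).prod (D e)) =
        2⁻¹ * ∫⁻ ω, (opt M (fun e => (ω e).2) : ℝ≥0∞) ∂(Measure.pi fun e => (D e).prod (D e))) ∧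
    ∃ ρ : SRule n,
      (∀ w R σ, M.Indep (hired ρ w R σ : Set (Fin n))) ∧
      ∀ w : Fin n → ℝ≥0, opt M w / 4 ≤
        (∑ σ : Equiv.Perm (Fin n), ∑ R : (Fin n → Bool) × (Fin n → Bool), ∑ g ∈ hired ρ w R σ, w g) /
          (n.factorial * 4 ^ n) := by
  refine ⟨⟨rule M, indep_acc M hE, meas_acc M, fun D _ π hm hs => ?_⟩,
    srule M, indep_hired M hE, fun w => ?_⟩
  · have h := main M hE D π hm hs
    have h2 : (2 : ℝ≥0∞) ^ n ≠ 0 := pow_ne_zero _ two_ne_zero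
    have h2' : (2 : ℝ≥0∞) ^ n ≠ ⊤ := ENNReal.pow_ne_top ENNReal.ofNat_ne_top
    simp only [div_eq_mul_inv]
    rw [lintegral_mul_const' _ _ (ENNReal.inv_ne_top.mpr h2)]
    refine (ENNReal.mul_right_inj two_ne_zero ENNReal.ofNat_ne_top).mp ?_
    rw [← mul_assoc, h, ← mul_assoc, ENNReal.mul_inv_cancel two_ne_zero ENNReal.ofNat_ne_top, one_mul,
      mul_right_comm, ENNReal.mul_inv_cancel h2 h2', one_mul]
  · have := n.factorial_pos
    rw [div_le_div_iff₀ (by norm_num) (by positivity), mul_comm, mul_comm _ (4 : ℝ≥0)]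
    exact sec M hE w

end Vale.Agent.Results.P331.WithSecretary
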